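import Vale.Agent.P124.H186.T4core

/-! P124, T4: assembly of the geometric theorem from the three cases (helper661). -/

namespace P124H186

open Classical in
/-- assembly of the three cases: radii `100 j rho`, first entrance times, pigeonhole. -/
theorem H661.assemble (g : Geo) (n : ℕ) (hg : Valid n g) (t0 : ℕ) (ht0 : t0 ≤ n) (rho : ℝ)
    (hrho : 0 < rho)
    (caseG : ∀ (ts pt : ℕ) (sig : ℕ → ℝ), ts ≤ t0 → IsSig g ts t0 sig → pt ≤ ts →
      (∀ k ≤ ts, g.D t0 pt ≤ g.D t0 k) → g.D t0 pt ≤ 10^8 * rho →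
      6/5 * rho ≤ sig t0 - sig pt → ∃ ts w R, IsCS g t0 rho ts w R)
    (caseI : ∀ (ts : ℕ) (sig : ℕ → ℝ), ts ≤ t0 → IsSig g ts t0 sig → g.D t0 ts ≤ 10^8 * rho →
      (∀ k < ts, g.D t0 ts + 20 * rho ≤ g.D t0 k) → sig t0 - sig ts < 6/5 * rho →
      ∃ ts w R, IsCS g t0 rho ts w R)
    (caseS : ∀ (a b : ℕ) (sig sig' : ℕ → ℝ), b < a → a ≤ t0 → IsSig g b t0 sig →
      IsSig g a t0 sig' → (∀ k ≤ a, g.D t0 a ≤ g.D t0 k) → (∀ k ≤ b, g.D t0 b ≤ g.D t0 k) →
      g.D t0 b ≤ 10^8 * rho → g.D t0 a + 80 * rho ≤ g.D t0 b → sig t0 - sig b < 6/5 * rho →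
      sig t0 - sig b ≤ sig' t0 - sig' a + 2/10^6 * rho →
      ∃ ts w R, IsCS g t0 rho ts w R) :
    ∃ ts w R, IsCS g t0 rho ts w R := by
  by_contra hno
  have hsigs : ∀ ts, ts ≤ t0 → ∃ sig, IsSig g ts t0 sig := fun ts h => hg.exists_sig h ht0
  choose! sg hsg using hsigs
  -- consequences of not G and not I
  have hG : ∀ ts ≤ t0, (∀ k ≤ ts, g.D t0 ts ≤ g.D t0 k) → g.D t0 ts ≤ 10^8 * rho →
      sg ts t0 - sg ts ts < 6/5 * rho := by
    intro ts hts hn hd
    by_contra hc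
    exact hno (caseG ts ts (sg ts) hts (hsg ts hts) le_rfl hn hd (not_lt.1 hc))
  have hI : ∀ ts ≤ t0, (∀ k ≤ ts, g.D t0 ts ≤ g.D t0 k) → g.D t0 ts ≤ 10^8 * rho →
      ∃ k < ts, g.D t0 k < g.D t0 ts + 20 * rho := by
    intro ts hts hn hd
    by_contra hc
    push Not at hc
    exact hno (caseI ts (sg ts) hts (hsg ts hts) hd hc (hG ts hts hn hd))
  -- entrance times
  have hex : ∀ j : ℕ, ∃ t, g.D t0 t ≤ 100 * (j : ℝ) * rho := by
    intro j
    refine ⟨t0, ?_⟩
    rw [hg.D_self t0 ht0]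
    positivity
  let tau : ℕ → ℕ := fun j => Nat.find (hex j)
  have tau_le : ∀ j, tau j ≤ t0 := by
    intro j
    apply Nat.find_min' (hex j)
    rw [hg.D_self t0 ht0]
    positivity
  have tau_spec : ∀ j, g.D t0 (tau j) ≤ 100 * (j : ℝ) * rho := fun j => Nat.find_spec (hex j)
  have tau_min : ∀ j, ∀ k < tau j, 100 * (j : ℝ) * rho < g.D t0 k := fun j k hk =>
    not_le.1 (Nat.find_min (hex j) hk)
  have tau_near : ∀ j, ∀ k ≤ tau j, g.D t0 (tau j) ≤ g.D t0 k := by
    intro j k hk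
    rcases hk.lt_or_eq with h | h
    · exact (tau_spec j).trans (tau_min j k h).le
    · rw [h]
  have tau_D : ∀ j : ℕ, j ≤ 10^6 → g.D t0 (tau j) ≤ 10^8 * rho := by
    intro j hj
    have h1 : (j : ℝ) ≤ 10^6 := by exact_mod_cast hj
    have h2 := tau_spec j
    nlinarith
  have tau_lo : ∀ j : ℕ, j ≤ 10^6 → 100 * (j : ℝ) * rho - 20 * rho < g.D t0 (tau j) := by
    intro j hj
    obtain ⟨k, hk, hk2⟩ := hI (tau j) (tau_le j) (tau_near j) (tau_D j hj)
    have := tau_min j k hk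
    linarith
  let h : ℕ → ℝ := fun j => sg (tau j) t0 - sg (tau j) (tau j)
  have h_lt : ∀ j : ℕ, j ≤ 10^6 → h j < 6/5 * rho := fun j hj =>
    hG (tau j) (tau_le j) (tau_near j) (tau_D j hj)
  have h_ge : ∀ j : ℕ, j ≤ 10^6 → -(rho / 10^7) ≤ h j := by
    intro j hj
    have h1 := (hsg (tau j) (tau_le j)).lower hg ht0 (p := tau j) le_rfl (tau_le j)
      (c := t0) le_rfl
    have h2 := hg.D_symm (tau j) ((tau_le j).trans ht0) t0 ht0
    have h3 := tau_D j hj
    rw [h2] at h1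
    change -(rho / 10^7) ≤ sg (tau j) t0 - sg (tau j) (tau j)
    linarith
  have h_step : ∀ j : ℕ, j + 1 ≤ 10^6 → h j + 2/10^6 * rho < h (j+1) := by
    intro j hj
    by_contra hc
    have hc' := not_lt.1 hc
    have hlo := tau_lo (j+1) hj
    have hup := tau_spec j
    push_cast at hlo
    have hle : tau (j+1) ≤ tau j := by
      apply Nat.find_min' (hex (j+1))
      push_cast
      nlinarith
    have hne : tau (j+1) ≠ tau j := by
      intro he
      rw [he] at hlo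
      nlinarith
    apply hno
    apply caseS (tau j) (tau (j+1)) (sg (tau (j+1))) (sg (tau j)) (lt_of_le_of_ne hle hne)
      (tau_le j) (hsg _ (tau_le _)) (hsg _ (tau_le _)) (tau_near j) (tau_near (j+1))
      (tau_D _ hj) ?_ (h_lt (j+1) hj) hc'
    nlinarith
  have h_sum : ∀ m : ℕ, m ≤ 10^6 → h 0 + (m : ℝ) * (2/10^6 * rho) ≤ h m := by
    intro m
    induction m with
    | zero => intro _; simp
    | succ m ih =>
      intro hm
      have h1 := ih (by omega)
      have h2 := h_step m hm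
      push_cast
      linarith
  have h1 := h_sum (10^6) le_rfl
  have h2 := h_ge 0 (by norm_num)
  have h3 := h_lt (10^6) le_rfl
  push_cast at h1
  linarith

end P124H186
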